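import Vale.Agent.P125.P58.Top
import Vale.Agent.P125.BV.Top

set_option linter.unusedSectionVars false
set_option linter.unusedVariables false

/-!
# P125: polynomial rate for the formal identity from `ℓ_1^n` to the James space

Corollary of `Poly.plain58`: the sum of the squares of the sums of `x` over consecutive disjoint
blocks of coordinates is at most `2 * (max |initial sum of x|) * |x|_1`.
-/

namespace Vale.Agent.P125.J67

open scoped BigOperators
open Vale.Agent.P125.Dich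

/-- the blocks `[c r, c (r+1))` are disjoint and fill `[c 0, c m)` -/
lemma ind_tele (c : ℕ → ℕ) (hc : Monotone c) (x m : ℕ) :
    ∑ r ∈ Finset.range m, (if c r ≤ x ∧ x < c (r + 1) then (1 : ℝ) else 0) =
      if c 0 ≤ x ∧ x < c m then 1 else 0 := by
  induction m with
  | zero =>
    rw [Finset.sum_range_zero, if_neg (by omega)]
  | succ m ih =>
    rw [Finset.sum_range_succ, ih]
    have h1 : c 0 ≤ c m := hc (Nat.zero_le m)
    have h2 : c m ≤ c (m + 1) := hc (Nat.le_succ m)
    by_cases a : c 0 ≤ x ∧ x < c m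
    · rw [if_pos a, if_neg (by omega), if_pos (by omega), add_zero]
    · rw [if_neg a]
      by_cases b : c m ≤ x ∧ x < c (m + 1)
      · rw [if_pos b, if_pos (by omega), zero_add]
      · rw [if_neg b, if_neg (by omega), add_zero]

/-- the largest absolute value of a initial sum -/
noncomputable def Jv {n : ℕ} (v : Fin n → ℝ) : ℝ :=
  Finset.univ.sup' Finset.univ_nonempty (fun k : Fin (n + 1) =>
    |∑ l : Fin n, if l.val < k.val then v l else 0|)

lemma abs_pre_le_Jv {n : ℕ} (v : Fin n → ℝ) (k : ℕ) :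
    |∑ l : Fin n, if l.val < k then v l else 0| ≤ Jv v := by
  have e : (∑ l : Fin n, if l.val < k then v l else 0) =
      ∑ l : Fin n, if l.val < min k n then v l else 0 := by
    refine Finset.sum_congr rfl fun l _ => ?_
    have hl := l.isLt
    by_cases h : l.val < k
    · rw [if_pos h, if_pos (by omega)]
    · rw [if_neg h, if_neg (by omega)]
  rw [e]
  exact Finset.le_sup' (fun k : Fin (n + 1) => |∑ l : Fin n, if l.val < k.val then v l else 0|)
    (Finset.mem_univ (⟨min k n, by omega⟩ : Fin (n + 1)))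

lemma Jv_nonneg {n : ℕ} (v : Fin n → ℝ) : 0 ≤ Jv v :=
  le_trans (abs_nonneg _) (abs_pre_le_Jv v 0)

/-- pointwise: James' quadratic variation is at most `2 * Jv * ℓ_1` -/
lemma james_pointwise {n : ℕ} (v : Fin n → ℝ) (c : ℕ → ℕ) (hc : Monotone c) (m : ℕ) :
    ∑ r ∈ Finset.range m,
        (∑ l : Fin n, if c r ≤ l.val ∧ l.val < c (r + 1) then v l else 0) ^ 2 ≤
      2 * Jv v * ∑ l : Fin n, |v l| := by
  have hJ := Jv_nonneg v
  have h1 : ∀ r, |∑ l : Fin n, if c r ≤ l.val ∧ l.val < c (r + 1) then v l else 0| ≤ 2 * Jv v := by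
    intro r
    have hcr : c r ≤ c (r + 1) := hc (Nat.le_succ r)
    have e : (∑ l : Fin n, if c r ≤ l.val ∧ l.val < c (r + 1) then v l else 0) =
        (∑ l : Fin n, if l.val < c (r + 1) then v l else 0) -
          ∑ l : Fin n, if l.val < c r then v l else 0 := by
      rw [← Finset.sum_sub_distrib]
      refine Finset.sum_congr rfl fun l _ => ?_
      by_cases a : l.val < c r
      · rw [if_neg (by omega), if_pos (by omega), if_pos a, sub_self]
      · by_cases b : l.val < c (r + 1)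
        · rw [if_pos (by omega), if_pos b, if_neg a, sub_zero]
        · rw [if_neg (by omega), if_neg b, if_neg a, sub_zero]
    rw [e]
    have a1 := abs_pre_le_Jv v (c (r + 1))
    have a2 := abs_pre_le_Jv v (c r)
    have a3 := abs_sub_le (∑ l : Fin n, if l.val < c (r + 1) then v l else 0) 0
      (∑ l : Fin n, if l.val < c r then v l else 0)
    simp only [sub_zero, zero_sub, abs_neg] at a3
    linarith
  have h2 : ∀ r, |∑ l : Fin n, if c r ≤ l.val ∧ l.val < c (r + 1) then v l else 0| ≤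
      ∑ l : Fin n, |v l| * (if c r ≤ l.val ∧ l.val < c (r + 1) then (1 : ℝ) else 0) := by
    intro r
    refine (Finset.abs_sum_le_sum_abs _ _).trans (le_of_eq ?_)
    refine Finset.sum_congr rfl fun l _ => ?_
    split_ifs <;> simp
  have h3 : ∀ r, (∑ l : Fin n, if c r ≤ l.val ∧ l.val < c (r + 1) then v l else 0) ^ 2 ≤
      2 * Jv v *
        ∑ l : Fin n, |v l| * (if c r ≤ l.val ∧ l.val < c (r + 1) then (1 : ℝ) else 0) := by
    intro r
    rw [← sq_abs, sq]
    exact mul_le_mul (h1 r) (h2 r) (abs_nonneg _) (by positivity)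
  calc ∑ r ∈ Finset.range m,
        (∑ l : Fin n, if c r ≤ l.val ∧ l.val < c (r + 1) then v l else 0) ^ 2
      ≤ ∑ r ∈ Finset.range m, 2 * Jv v *
          ∑ l : Fin n, |v l| * (if c r ≤ l.val ∧ l.val < c (r + 1) then (1 : ℝ) else 0) :=
        Finset.sum_le_sum fun r _ => h3 r
    _ = 2 * Jv v * ∑ l : Fin n, |v l| *
          ∑ r ∈ Finset.range m, (if c r ≤ l.val ∧ l.val < c (r + 1) then (1 : ℝ) else 0) := by
        rw [← Finset.mul_sum, Finset.sum_comm]
        congr 1
        refine Finset.sum_congr rfl fun l _ => ?_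
        rw [Finset.mul_sum]
    _ ≤ 2 * Jv v * ∑ l : Fin n, |v l| := by
        refine mul_le_mul_of_nonneg_left ?_ (by positivity)
        refine Finset.sum_le_sum fun l _ => ?_
        rw [ind_tele c hc l.val m]
        split_ifs
        · rw [mul_one]
        · rw [mul_zero]
          exact abs_nonneg _

/-- the twelfth root of `t` -/
lemma exists_root12 (t : ℕ) (ht : 1 ≤ t) :
    ∃ x : ℝ, 1 ≤ x ∧ x ^ 12 = (t : ℝ) ∧ x ^ 22 = (t : ℝ) ^ ((11 : ℝ) / 6) ∧
      x ^ 23 = (t : ℝ) ^ ((23 : ℝ) / 12) := by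
  have ht0 : (0 : ℝ) ≤ (t : ℝ) := Nat.cast_nonneg t
  have ht1 : (1 : ℝ) ≤ (t : ℝ) := by exact_mod_cast ht
  refine ⟨(t : ℝ) ^ ((1 : ℝ) / 12), ?_, ?_, ?_, ?_⟩
  · exact Real.one_le_rpow ht1 (by norm_num)
  · rw [← Real.rpow_natCast, ← Real.rpow_mul ht0]
    norm_num
  · rw [← Real.rpow_natCast, ← Real.rpow_mul ht0]
    norm_num
  · rw [← Real.rpow_natCast, ← Real.rpow_mul ht0]
    norm_num

/-- **Polynomial rate for the James norm.** -/
theorem james67 : ∀ t : ℕ, 1 ≤ t →
    ∀ (n : ℕ) (S : Type) [Fintype S] [DecidableEq S] (μ : S → ℝ) (P : Matrix S S ℝ),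
      (∀ i, 0 ≤ μ i) → ∑ i, μ i = 1 → (∀ i j, 0 ≤ P i j) → (∀ i, ∑ j, P i j = 1) →
      (∀ i j, μ i * P i j = μ j * P j i) → ∀ (f : S → Fin n → ℝ)
      (m : S → S → ℕ) (c : S → S → ℕ → ℕ), (∀ i j, Monotone (c i j)) →
        ∑ i, ∑ j, μ i * (P ^ t) i j *
            (∑ r ∈ Finset.range (m i j),
              (∑ l : Fin n, if c i j r ≤ l.val ∧ l.val < c i j (r + 1)
                then f j l - f i l else 0) ^ 2) ≤
          25 * (t : ℝ) ^ (23 / 12 : ℝ) *
            ∑ i, ∑ j, μ i * P i j * (∑ l : Fin n, |f j l - f i l|) ^ 2 := by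
  intro t ht n S _ _ μ P h0 h1 h2 h3 h4 f m c hc
  have hch : IsChain μ P := ⟨h0, h1, h2, h3, h4⟩
  have hpow := (isChain_pow hch t).2.2.1
  obtain ⟨x, hx, hx12, hx22, hx23⟩ := exists_root12 t ht
  have hx0 : (0 : ℝ) < x := by linarith
  set U := ∑ i, ∑ j, μ i * P i j * (∑ l : Fin n, |f j l - f i l|) ^ 2 with hU
  have kA := Vale.Agent.P125.Poly.plain58 t ht n S μ P h0 h1 h2 h3 h4 f
  rw [← hU, ← hx22] at kA
  have kB := Vale.Agent.P125.BV.n1_triv t μ P hch f
  simp only [Vale.Agent.P125.BV.n1, Pi.sub_apply] at kB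
  rw [← hU, ← hx12] at kB
  rw [← hx23]
  -- pointwise
  have hpt : ∀ i j, μ i * (P ^ t) i j *
      (∑ r ∈ Finset.range (m i j),
        (∑ l : Fin n, if c i j r ≤ l.val ∧ l.val < c i j (r + 1)
          then f j l - f i l else 0) ^ 2) ≤
      x * (μ i * (P ^ t) i j * (Finset.univ.sup' Finset.univ_nonempty (fun k : Fin (n + 1) =>
              |∑ l : Fin n, if l.val < k.val then f j l - f i l else 0|)) ^ 2) +
        x⁻¹ * (μ i * (P ^ t) i j * (∑ l : Fin n, |f j l - f i l|) ^ 2) := by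
    intro i j
    have hw : 0 ≤ μ i * (P ^ t) i j := mul_nonneg (h0 i) (hpow i j)
    have hp := james_pointwise (fun l => f j l - f i l) (c i j) (hc i j) (m i j)
    have hJdef : Jv (fun l => f j l - f i l) =
        Finset.univ.sup' Finset.univ_nonempty (fun k : Fin (n + 1) =>
              |∑ l : Fin n, if l.val < k.val then f j l - f i l else 0|) := rfl
    rw [hJdef] at hp
    set A := Finset.univ.sup' Finset.univ_nonempty (fun k : Fin (n + 1) =>
              |∑ l : Fin n, if l.val < k.val then f j l - f i l else 0|)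
    set B := ∑ l : Fin n, |f j l - f i l|
    have hAB : 2 * A * B ≤ x * A ^ 2 + x⁻¹ * B ^ 2 := by
      have e : x * A ^ 2 + x⁻¹ * B ^ 2 - 2 * A * B = x⁻¹ * (x * A - B) ^ 2 := by
        field_simp
        ring
      have : 0 ≤ x⁻¹ * (x * A - B) ^ 2 := by positivity
      linarith
    calc _ ≤ μ i * (P ^ t) i j * (x * A ^ 2 + x⁻¹ * B ^ 2) :=
          mul_le_mul_of_nonneg_left (hp.trans hAB) hw
      _ = _ := by ring
  have hsum := Finset.sum_le_sum (s := Finset.univ) fun i _ =>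
    Finset.sum_le_sum (s := Finset.univ) fun j _ => hpt i j
  refine hsum.trans ?_
  simp only [Finset.sum_add_distrib, ← Finset.mul_sum]
  have k1 := mul_le_mul_of_nonneg_left kA hx0.le
  have k2 := mul_le_mul_of_nonneg_left kB (inv_nonneg.2 hx0.le)
  have e1 : x * (24 * x ^ 22 * U) + x⁻¹ * ((x ^ 12) ^ 2 * U) = 25 * x ^ 23 * U := by
    field_simp
    ring
  linarith

/-- both estimates together -/
theorem poly_james67 : ∀ t : ℕ, 1 ≤ t →
    ∀ (n : ℕ) (S : Type) [Fintype S] [DecidableEq S] (μ : S → ℝ) (P : Matrix S S ℝ),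
      (∀ i, 0 ≤ μ i) → ∑ i, μ i = 1 → (∀ i j, 0 ≤ P i j) → (∀ i, ∑ j, P i j = 1) →
      (∀ i j, μ i * P i j = μ j * P j i) → ∀ f : S → Fin n → ℝ,
        (∑ i, ∑ j, μ i * (P ^ t) i j *
            (Finset.univ.sup' Finset.univ_nonempty (fun k : Fin (n + 1) =>
              |∑ l : Fin n, if l.val < k.val then f j l - f i l else 0|)) ^ 2 ≤
          24 * (t : ℝ) ^ (11 / 6 : ℝ) *
            ∑ i, ∑ j, μ i * P i j * (∑ l : Fin n, |f j l - f i l|) ^ 2) ∧
        (∀ (m : S → S → ℕ) (c : S → S → ℕ → ℕ), (∀ i j, Monotone (c i j)) →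
          ∑ i, ∑ j, μ i * (P ^ t) i j *
              (∑ r ∈ Finset.range (m i j),
                (∑ l : Fin n, if c i j r ≤ l.val ∧ l.val < c i j (r + 1)
                  then f j l - f i l else 0) ^ 2) ≤
            25 * (t : ℝ) ^ (23 / 12 : ℝ) *
              ∑ i, ∑ j, μ i * P i j * (∑ l : Fin n, |f j l - f i l|) ^ 2) :=
  fun t ht n S _ _ μ P h0 h1 h2 h3 h4 f =>
    ⟨Vale.Agent.P125.Poly.plain58 t ht n S μ P h0 h1 h2 h3 h4 f,
      fun m c hc => james67 t ht n S μ P h0 h1 h2 h3 h4 f m c hc⟩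

end Vale.Agent.P125.J67
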